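import Mathlib

/-!
# P131: hyperinvariant subspaces, definitions
-/

namespace Vale.Agent.P131LI

/-- The set `S` of bounded operators is not transitive: there is a closed subspace `N`, different
from `0` and from `H`, which is invariant under every member of `S`. -/
def NotTransitive {H : Type*} [NormedAddCommGroup H] [InnerProductSpace ℂ H]
    (S : Set (H →L[ℂ] H)) : Prop :=
  ∃ N : Submodule ℂ H, IsClosed (N : Set H) ∧ N ≠ ⊥ ∧ N ≠ ⊤ ∧ ∀ A ∈ S, ∀ x ∈ N, A x ∈ N

/-- `T` has a nontrivial closed hyperinvariant subspace: its commutant is not transitive. -/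
def HasHyperinvariantSubspace {H : Type*} [NormedAddCommGroup H] [InnerProductSpace ℂ H]
    (T : H →L[ℂ] H) : Prop :=
  NotTransitive {A : H →L[ℂ] H | A * T = T * A}

/-- `S` belongs to the double commutant of `T`. -/
def DoubleCommutes {H : Type*} [NormedAddCommGroup H] [InnerProductSpace ℂ H]
    (T S : H →L[ℂ] H) : Prop :=
  ∀ A : H →L[ℂ] H, A * T = T * A → A * S = S * A

end Vale.Agent.P131LI
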