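import Vale.Agent.P371.Brouwer

/-!
# P131: the fixed point theorem of Schauder and Lomonosov's lemma
-/

open Filter Topology Set

namespace Vale.Agent.P131LI

theorem brouwer_simplex {ι : Type*} [Fintype ι] [Nonempty ι] (g : (ι → ℝ) → (ι → ℝ))
    (hg : ContinuousOn g (stdSimplex ℝ ι)) (hm : MapsTo g (stdSimplex ℝ ι) (stdSimplex ℝ ι)) :
    ∃ w ∈ stdSimplex ℝ ι, g w = w := by
  classical
  let e : EuclideanSpace ℝ ι ≃L[ℝ] (ι → ℝ) := EuclideanSpace.equiv ι ℝ
  have hK : IsCompact (e ⁻¹' stdSimplex ℝ ι) :=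
    (e.toHomeomorph.isCompact_preimage).2 (isCompact_stdSimplex ℝ ι)
  have hc : Convex ℝ (e ⁻¹' stdSimplex ℝ ι) :=
    (convex_stdSimplex ℝ ι).linear_preimage (e : EuclideanSpace ℝ ι →ₗ[ℝ] (ι → ℝ))
  have hne : (e ⁻¹' stdSimplex ℝ ι).Nonempty := by
    obtain ⟨i⟩ := ‹Nonempty ι›
    refine ⟨e.symm (Pi.single i 1), ?_⟩
    rw [mem_preimage, e.apply_symm_apply]
    exact single_mem_stdSimplex ℝ i
  obtain ⟨x, hx, hfx⟩ := Vale.Agent.P371.brouwer hK hc hne (f := fun x => e.symm (g (e x)))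
    (e.symm.continuous.comp_continuousOn
      (hg.comp e.continuous.continuousOn fun x hx => hx))
    (fun x hx => by
      rw [mem_preimage, e.apply_symm_apply]
      exact hm hx)
  refine ⟨e x, hx, ?_⟩
  have h1 := congrArg e hfx
  simpa using h1

/-- **Schauder's fixed point theorem.** -/
theorem schauder {E : Type*} [NormedAddCommGroup E] [NormedSpace ℝ E] {Z : Set E}
    (hZ : IsCompact Z) (hc : Convex ℝ Z) (hne : Z.Nonempty) {F : E → E}
    (hF : ContinuousOn F Z) (hm : MapsTo F Z Z) : ∃ z ∈ Z, F z = z := by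
  classical
  have approx : ∀ ε : ℝ, 0 < ε → ∃ z ∈ Z, ‖F z - z‖ ≤ ε := by
    intro ε hε
    obtain ⟨t, htZ, hcov⟩ := hZ.elim_nhds_subcover (fun x => Metric.ball x ε)
      (fun x _ => Metric.ball_mem_nhds x hε)
    obtain ⟨z0, hz0⟩ := hne
    have hcov' : ∀ z ∈ Z, ∃ j : t, ‖z - j‖ < ε := by
      intro z hz
      obtain ⟨x, hx, hzx⟩ := mem_iUnion₂.1 (hcov hz)
      exact ⟨⟨x, hx⟩, by rwa [Metric.mem_ball, dist_eq_norm] at hzx⟩
    haveI : Nonempty t := ⟨(hcov' z0 hz0).choose⟩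
    -- the two maps
    set P : (t → ℝ) → E := fun w => ∑ j, w j • (j : E) with hP
    have hPZ : MapsTo P (stdSimplex ℝ t) Z := by
      intro w hw
      exact hc.sum_mem (fun j _ => hw.1 j) hw.2 (fun j _ => htZ j j.2)
    have hPc : Continuous P := continuous_finsetSum _ fun j _ =>
      (continuous_apply j).smul continuous_const
    set μ : E → t → ℝ := fun z j => max 0 (ε - ‖z - j‖) with hμ
    have hμ0 : ∀ z j, 0 ≤ μ z j := fun z j => le_max_left _ _
    have hμc : ∀ j, Continuous fun z => μ z j := fun j => by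
      simp only [hμ]
      fun_prop
    have hμpos : ∀ z ∈ Z, 0 < ∑ j, μ z j := by
      intro z hz
      obtain ⟨j, hj⟩ := hcov' z hz
      refine Finset.sum_pos' (fun i _ => hμ0 z i) ⟨j, Finset.mem_univ j, ?_⟩
      exact lt_max_of_lt_right (by linarith)
    have hμn : ∀ z j, 0 < μ z j → ‖z - j‖ ≤ ε := by
      intro z j h
      by_contra! h1
      have : μ z j = 0 := max_eq_left (by linarith)
      linarith
    set g : (t → ℝ) → (t → ℝ) := fun w j => μ (F (P w)) j / ∑ i, μ (F (P w)) i with hg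
    have hFP : ContinuousOn (fun w => F (P w)) (stdSimplex ℝ t) :=
      hF.comp hPc.continuousOn hPZ
    have hgc : ContinuousOn g (stdSimplex ℝ t) := by
      refine continuousOn_pi.2 fun j => ?_
      refine ContinuousOn.div ((hμc j).comp_continuousOn hFP) ?_ ?_
      · exact continuousOn_finsetSum _ fun i _ => (hμc i).comp_continuousOn hFP
      · intro w hw
        exact (hμpos _ (hm (hPZ hw))).ne'
    have hgm : MapsTo g (stdSimplex ℝ t) (stdSimplex ℝ t) := by
      intro w hw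
      have h1 := hμpos _ (hm (hPZ hw))
      refine ⟨fun j => div_nonneg (hμ0 _ _) h1.le, ?_⟩
      simp only [hg]
      rw [← Finset.sum_div, div_self h1.ne']
    obtain ⟨w, hw, hgw⟩ := brouwer_simplex g hgc hgm
    refine ⟨P w, hPZ hw, ?_⟩
    have h1 : F (P w) - P w = ∑ j, w j • (F (P w) - (j : E)) := by
      simp only [smul_sub, Finset.sum_sub_distrib]
      rw [← Finset.sum_smul, hw.2, one_smul]
    rw [h1]
    refine (norm_sum_le _ _).trans ?_
    have h2 : ∀ j ∈ (Finset.univ : Finset t), ‖w j • (F (P w) - (j : E))‖ ≤ w j * ε := by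
      intro j _
      rw [norm_smul, Real.norm_eq_abs, abs_of_nonneg (hw.1 j)]
      rcases (hw.1 j).eq_or_lt with h0 | h0
      · rw [← h0, zero_mul, zero_mul]
      · refine mul_le_mul_of_nonneg_left (hμn _ _ ?_) (hw.1 j)
        have h3 : w j = μ (F (P w)) j / ∑ i, μ (F (P w)) i := by
          conv_lhs => rw [← hgw]
        by_contra! h4
        have h5 : μ (F (P w)) j = 0 := le_antisymm h4 (hμ0 _ _)
        rw [h5, zero_div] at h3
        linarith
    refine (Finset.sum_le_sum h2).trans ?_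
    rw [← Finset.sum_mul, hw.2, one_mul]
  obtain ⟨z, hz, hmin⟩ := hZ.exists_isMinOn hne ((hF.sub continuousOn_id).norm)
  refine ⟨z, hz, ?_⟩
  by_contra hne'
  have h1 : 0 < ‖F z - z‖ := norm_pos_iff.2 (sub_ne_zero.2 hne')
  obtain ⟨y, hy, hy1⟩ := approx (‖F z - z‖ / 2) (by positivity)
  have h2 : ‖F z - z‖ ≤ ‖F y - y‖ := hmin hy
  linarith

variable {H : Type*} [NormedAddCommGroup H] [NormedSpace ℂ H]

/-- **Lomonosov's lemma.** `S` is a linear space of operators such that `{A y | A ∈ S}` is dense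
for all `y ≠ 0`, and `K ≠ 0` is compact; then `K A` has the eigenvalue one for some `A ∈ S`. -/
theorem lomonosov_lemma {K : H →L[ℂ] H} (hK : IsCompactOperator K) (hK0 : K ≠ 0)
    (S : Submodule ℂ (H →L[ℂ] H))
    (hS : ∀ y : H, y ≠ 0 → ∀ x : H, ∀ ε : ℝ, 0 < ε → ∃ A ∈ S, ‖A y - x‖ < ε) :
    ∃ A ∈ S, ∃ z : H, z ≠ 0 ∧ K (A z) = z := by
  classical
  obtain ⟨x1, hx1⟩ : ∃ x, K x ≠ 0 := by
    by_contra! h
    exact hK0 (ContinuousLinearMap.ext h)
  -- the centre of the ball
  obtain ⟨r, hr⟩ : ∃ r : ℝ, 0 < r ∧ ‖K‖ < r * ‖K x1‖ := by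
    have h1 : 0 < ‖K x1‖ := norm_pos_iff.2 hx1
    refine ⟨(‖K‖ + 1) / ‖K x1‖, by positivity, ?_⟩
    rw [div_mul_cancel₀ _ h1.ne']
    linarith
  set x0 : H := (r : ℂ) • x1 with hx0
  have hKx0 : ‖K‖ < ‖K x0‖ := by
    rw [hx0, map_smul, norm_smul, Complex.norm_real, Real.norm_eq_abs, abs_of_pos hr.1]
    exact hr.2
  set B : Set H := Metric.closedBall x0 1 with hB
  set Z : Set H := closure (K '' B) with hZdef
  have hZc : IsCompact Z := by
    have h1 : IsCompact (closure (K '' Metric.closedBall (0 : H) (‖x0‖ + 1))) :=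
      hK.isCompact_closure_image_closedBall _
    refine h1.of_isClosed_subset isClosed_closure (closure_mono (image_mono ?_))
    intro y hy
    rw [mem_closedBall_zero_iff]
    have h2 : ‖y - x0‖ ≤ 1 := by rwa [hB, Metric.mem_closedBall, dist_eq_norm] at hy
    have h3 : y = (y - x0) + x0 := by abel
    rw [h3]
    refine (norm_add_le _ _).trans (by linarith)
  have hZv : Convex ℝ Z := by
    refine Convex.closure ?_
    have h1 : Convex ℝ B := convex_closedBall x0 1
    exact h1.linear_image ((K : H →ₗ[ℂ] H).restrictScalars ℝ)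
  have hZ0 : ∀ z ∈ Z, z ≠ 0 := by
    have h1 : Z ⊆ {z : H | ‖K x0‖ - ‖K‖ ≤ ‖z‖} := by
      refine closure_minimal ?_ (isClosed_le continuous_const continuous_norm)
      rintro _ ⟨y, hy, rfl⟩
      have h2 : ‖y - x0‖ ≤ 1 := by rwa [hB, Metric.mem_closedBall, dist_eq_norm] at hy
      have h3 : ‖K (y - x0)‖ ≤ ‖K‖ := (K.le_opNorm _).trans (by
        nlinarith [norm_nonneg K])
      have h4 : K x0 = K y - K (y - x0) := by rw [map_sub]; abel
      have h5 : ‖K x0‖ ≤ ‖K y‖ + ‖K (y - x0)‖ := by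
        rw [h4]
        exact norm_sub_le _ _
      rw [mem_setOf_eq]
      linarith
    rintro z hz rfl
    have := h1 hz
    rw [mem_setOf_eq, norm_zero] at this
    linarith
  have hZne : Z.Nonempty := ⟨K x0, subset_closure ⟨x0, by simp [hB], rfl⟩⟩
  -- finitely many operators
  obtain ⟨t, ht⟩ := hZc.elim_finite_subcover (fun A : S => {z : H | ‖A.1 z - x0‖ < 1})
    (fun A => isOpen_lt (by fun_prop) continuous_const) (fun z hz => by
      obtain ⟨A, hA, hAz⟩ := hS z (hZ0 z hz) x0 1 one_pos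
      exact mem_iUnion.2 ⟨⟨A, hA⟩, hAz⟩)
  set α : S → H → ℝ := fun A z => max 0 (1 - ‖A.1 z - x0‖) with hα
  have hα0 : ∀ A z, 0 ≤ α A z := fun A z => le_max_left _ _
  have hαc : ∀ A, Continuous (α A) := fun A => by
    simp only [hα]
    fun_prop
  have hαpos : ∀ z ∈ Z, 0 < ∑ A ∈ t, α A z := by
    intro z hz
    obtain ⟨A, hA, hz'⟩ := mem_iUnion₂.1 (ht hz)
    refine Finset.sum_pos' (fun i _ => hα0 i z) ⟨A, hA, ?_⟩
    exact lt_max_of_lt_right (by
      rw [mem_setOf_eq] at hz'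
      linarith)
  set Y : H → H := fun z => ∑ A ∈ t, (α A z / ∑ A ∈ t, α A z) • (A.1 z) with hY
  have hYc : ContinuousOn Y Z := by
    refine continuousOn_finsetSum _ fun A _ => ?_
    have h1 : ContinuousOn (fun z => α A z / ∑ A ∈ t, α A z) Z :=
      ContinuousOn.div (hαc A).continuousOn
        (continuous_finsetSum _ fun A _ => hαc A).continuousOn fun z hz => (hαpos z hz).ne'
    have h2 : ContinuousOn (fun z => A.1 z) Z := A.1.continuous.continuousOn
    exact h1.smul h2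
  have hYB : ∀ z ∈ Z, Y z ∈ B := by
    intro z hz
    have hp := hαpos z hz
    have hsum : ∑ A ∈ t, α A z / ∑ A ∈ t, α A z = 1 := by
      rw [← Finset.sum_div, div_self hp.ne']
    rw [hB, Metric.mem_closedBall, dist_eq_norm]
    have h1 : Y z - x0 = ∑ A ∈ t, (α A z / ∑ A ∈ t, α A z) • (A.1 z - x0) := by
      simp only [smul_sub, Finset.sum_sub_distrib]
      rw [← Finset.sum_smul, hsum, one_smul]
    rw [h1]
    refine (norm_sum_le _ _).trans ?_
    rw [← hsum]
    refine Finset.sum_le_sum fun A _ => ?_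
    have hw0 : 0 ≤ α A z / ∑ A ∈ t, α A z := div_nonneg (hα0 _ _) hp.le
    rw [norm_smul, Real.norm_eq_abs, abs_of_nonneg hw0]
    by_cases h2 : ‖A.1 z - x0‖ ≤ 1
    · exact mul_le_of_le_one_right hw0 h2
    · have h3 : α A z = 0 := max_eq_left (by linarith)
      rw [h3, zero_div, zero_mul]
  obtain ⟨z, hz, hfix⟩ := schauder hZc hZv hZne (F := fun z => K (Y z))
    (K.continuous.comp_continuousOn hYc)
    (fun z hz => subset_closure ⟨Y z, hYB z hz, rfl⟩)
  refine ⟨∑ A ∈ t, ((α A z / ∑ A ∈ t, α A z : ℝ) : ℂ) • A.1, ?_, z, hZ0 z hz, ?_⟩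
  · exact Submodule.sum_mem _ fun A _ => Submodule.smul_mem _ _ A.2
  · have h1 : (∑ A ∈ t, ((α A z / ∑ A ∈ t, α A z : ℝ) : ℂ) • A.1 : H →L[ℂ] H) z = Y z := by
      rw [ContinuousLinearMap.sum_apply]
      refine Finset.sum_congr rfl fun A _ => ?_
      rw [ContinuousLinearMap.smul_apply]
      exact (Complex.coe_smul _ _)
    rw [h1]
    exact hfix

end Vale.Agent.P131LI
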