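import Vale.Agent.P131.LI.Riesz
import Vale.Agent.P131.LI.Schauder
import Vale.Agent.P131.LI.Defs

/-!
# P131: hyperinvariant subspaces, the main theorem
-/

open Filter Topology Set

namespace Vale.Agent.P131LI

variable {H : Type*} [NormedAddCommGroup H] [InnerProductSpace ℂ H]

/-- An eigenvector of `T` gives a common invariant subspace of operators commuting with `T`. -/
theorem notTransitive_of_eigenvector {T : H →L[ℂ] H} {S : Set (H →L[ℂ] H)}
    (hS : ∀ A ∈ S, A * T = T * A) (hT : ∀ c : ℂ, T ≠ c • (1 : H →L[ℂ] H)) {v : H}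
    (hv : v ≠ 0) {l : ℂ} (hl : T v = l • v) : NotTransitive S := by
  refine ⟨LinearMap.ker ((T - l • (1 : H →L[ℂ] H) : H →L[ℂ] H) : H →ₗ[ℂ] H), ?_, ?_, ?_, ?_⟩
  · exact ContinuousLinearMap.isClosed_ker (T - l • (1 : H →L[ℂ] H))
  · intro h
    apply hv
    have h1 : v ∈ LinearMap.ker ((T - l • (1 : H →L[ℂ] H) : H →L[ℂ] H) : H →ₗ[ℂ] H) := by
      rw [LinearMap.mem_ker]
      simp [hl]
    rw [h] at h1
    exact (Submodule.mem_bot ℂ).1 h1
  · intro h
    apply hT l
    ext x
    have h1 : x ∈ LinearMap.ker ((T - l • (1 : H →L[ℂ] H) : H →L[ℂ] H) : H →ₗ[ℂ] H) := by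
      rw [h]
      exact Submodule.mem_top
    rw [LinearMap.mem_ker] at h1
    have h2 : T x - l • x = 0 := by simpa using h1
    simpa using sub_eq_zero.1 h2
  · intro A hA x hx
    rw [LinearMap.mem_ker] at hx ⊢
    have h2 : T x - l • x = 0 := by simpa using hx
    have h3 : T (A x) = A (T x) := by
      have := congrArg (fun B : H →L[ℂ] H => B x) (hS A hA)
      simpa using this.symm
    have h4 : T (A x) - l • A x = 0 := by
      rw [h3, ← map_smul, ← map_sub, h2, map_zero]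
    simpa using h4

/-- The commutant of a sequence, as a linear space. -/
def comm (T : ℕ → H →L[ℂ] H) : Submodule ℂ (H →L[ℂ] H) where
  carrier := {A | ∀ n, A * T n = T n * A}
  add_mem' := by
    intro A B hA hB n
    rw [add_mul, mul_add, hA n, hB n]
  zero_mem' := by
    intro n
    simp
  smul_mem' := by
    intro c A hA n
    rw [smul_mul_assoc, mul_smul_comm, hA n]

/-- No invariant subspace: the orbits of the commutant are dense. -/
theorem dense_of_not {T : ℕ → H →L[ℂ] H} (hno : ¬ NotTransitive (comm T : Set (H →L[ℂ] H)))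
    (y : H) (hy : y ≠ 0) (x : H) (ε : ℝ) (hε : 0 < ε) : ∃ A ∈ comm T, ‖A y - x‖ < ε := by
  let L : Submodule ℂ H :=
    { carrier := {z | ∃ A ∈ comm T, A y = z}
      add_mem' := by
        rintro _ _ ⟨A, hA, rfl⟩ ⟨B, hB, rfl⟩
        exact ⟨A + B, (comm T).add_mem hA hB, rfl⟩
      zero_mem' := ⟨0, (comm T).zero_mem, rfl⟩
      smul_mem' := by
        rintro c _ ⟨A, hA, rfl⟩
        exact ⟨c • A, (comm T).smul_mem c hA, rfl⟩ }
  have hmul : ∀ A ∈ comm T, ∀ B ∈ comm T, A * B ∈ comm T := by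
    intro A hA B hB n
    rw [mul_assoc, hB n, ← mul_assoc, hA n, mul_assoc]
  have hinv : ∀ A ∈ comm T, ∀ z ∈ L.topologicalClosure, A z ∈ L.topologicalClosure := by
    intro A hA z hz
    have h1 : MapsTo A (L : Set H) (L : Set H) := by
      rintro _ ⟨B, hB, rfl⟩
      exact ⟨A * B, hmul A hA B hB, rfl⟩
    exact map_mem_closure A.continuous hz h1
  have htop : L.topologicalClosure = ⊤ := by
    by_contra htop
    refine hno ⟨L.topologicalClosure, L.isClosed_topologicalClosure, ?_, htop, hinv⟩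
    intro hbot
    apply hy
    have h1 : y ∈ L.topologicalClosure :=
      L.le_topologicalClosure ⟨1, fun n => by simp, rfl⟩
    rw [hbot] at h1
    exact (Submodule.mem_bot ℂ).1 h1
  have hx : x ∈ closure (L : Set H) := by
    have : x ∈ L.topologicalClosure := by rw [htop]; exact Submodule.mem_top
    exact this
  obtain ⟨z, ⟨A, hA, rfl⟩, hz⟩ := Metric.mem_closure_iff.1 hx ε hε
  refine ⟨A, hA, ?_⟩
  rwa [dist_eq_norm, ← norm_neg, neg_sub] at hz

/-- An invariant finite-dimensional orbit gives an eigenvector. -/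
theorem eigenvector_of_orbit {T : H →L[ℂ] H} (E : Submodule ℂ H) [FiniteDimensional ℂ E] {z : H}
    (hz : z ≠ 0) (hE : ∀ k : ℕ, (T ^ k) z ∈ E) : ∃ v : H, v ≠ 0 ∧ ∃ l : ℂ, T v = l • v := by
  let F : Submodule ℂ H := Submodule.span ℂ (Set.range fun k : ℕ => (T ^ k) z)
  have hFE : F ≤ E := Submodule.span_le.2 (by
    rintro _ ⟨k, rfl⟩
    exact hE k)
  haveI : FiniteDimensional ℂ F := Submodule.finiteDimensional_of_le hFE
  have hT : ∀ x ∈ F, (T : H →ₗ[ℂ] H) x ∈ F := by
    intro x hx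
    refine Submodule.span_induction (p := fun x _ => (T : H →ₗ[ℂ] H) x ∈ F) ?_ ?_ ?_ ?_ hx
    · rintro _ ⟨k, rfl⟩
      refine Submodule.subset_span ⟨k + 1, ?_⟩
      simp only [pow_succ', ContinuousLinearMap.mul_apply]
      rfl
    · rw [map_zero]
      exact F.zero_mem
    · intro a b _ _ ha hb
      rw [map_add]
      exact F.add_mem ha hb
    · intro c a _ ha
      rw [map_smul]
      exact F.smul_mem c ha
  have hzF : z ∈ F := Submodule.subset_span ⟨0, by simp⟩
  haveI : Nontrivial F := ⟨⟨⟨z, hzF⟩, 0, fun h => hz (congrArg Subtype.val h)⟩⟩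
  obtain ⟨l, hl⟩ := Module.End.exists_eigenvalue ((T : H →ₗ[ℂ] H).restrict hT)
  obtain ⟨v, hv⟩ := hl.exists_hasEigenvector
  refine ⟨v, fun h => hv.2 (Subtype.ext h), l, ?_⟩
  have h1 := congrArg Subtype.val hv.apply_eq_smul
  simpa using h1

variable [CompleteSpace H]

/-- **Main theorem.** -/
theorem main_forward (T : ℕ → H →L[ℂ] H) (K : H →L[ℂ] H)
    (hT : ∀ c : ℂ, T 0 ≠ c • (1 : H →L[ℂ] H)) (hK : IsCompactOperator K) (hK0 : K ≠ 0)
    (hTK : ∀ n, T n * K = K * T (n + 1))
    (r : ℝ) (hb : ∀ k : ℕ, ∃ M : ℝ, ∃ᶠ n in atTop, ‖T n ^ k‖ ≤ M * r ^ n) :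
    NotTransitive {A : H →L[ℂ] H | ∀ n, A * T n = T n * A} := by
  by_contra hno
  obtain ⟨A, hA, z, hz, hKA⟩ := lomonosov_lemma hK hK0 (comm T) (dense_of_not hno)
  set C : H →L[ℂ] H := K * A with hC
  have hCz : ∀ m : ℕ, (C ^ m) z = z := by
    intro m
    induction m with
    | zero => simp
    | succ m ih =>
      rw [pow_succ, ContinuousLinearMap.mul_apply, hC, ContinuousLinearMap.mul_apply, hKA, ← hC,
        ih]
  have h1 : ∀ n, T n * C = C * T (n + 1) := by
    intro n
    rw [hC, ← mul_assoc, hTK, mul_assoc, mul_assoc, hA (n + 1)]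
  have h2 : ∀ k n, T n ^ k * C = C * T (n + 1) ^ k := by
    intro k n
    induction k with
    | zero => simp
    | succ k ih => rw [pow_succ, mul_assoc, h1, ← mul_assoc, ih, mul_assoc, ← pow_succ]
  have h3 : ∀ k m n, T n ^ k * C ^ m = C ^ m * T (n + m) ^ k := by
    intro k m
    induction m with
    | zero => intro n; simp
    | succ m ih =>
      intro n
      rw [pow_succ C m, ← mul_assoc, ih, mul_assoc, h2, mul_assoc]
      rfl
  have h4 : ∀ k m, (T 0 ^ k) z = (C ^ m) ((T m ^ k) z) := by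
    intro k m
    have h5 := congrArg (fun B : H →L[ℂ] H => B z) (h3 k m 0)
    simp only [ContinuousLinearMap.mul_apply, zero_add] at h5
    rwa [hCz] at h5
  -- scaling
  set ρ : ℝ := |r| + 1 with hρ
  have hρ0 : 0 < ρ := by positivity
  have hρc : (ρ : ℂ) ≠ 0 := by exact_mod_cast hρ0.ne'
  have hCc : IsCompactOperator ((ρ : ℂ) • C) := by
    have h5 : IsCompactOperator C := hK.comp_clm A
    exact h5.smul (ρ : ℂ)
  obtain ⟨E, hfd, hE⟩ := exists_fd hCc
  haveI := hfd
  obtain ⟨v, hv, l, hl⟩ := eigenvector_of_orbit (T := T 0) E hz (fun k => by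
    refine hE _ ?_
    obtain ⟨M, hM⟩ := hb k
    refine ⟨|M| * ‖z‖, hM.mono fun m hMm => ⟨((ρ : ℂ) ^ m)⁻¹ • (T m ^ k) z, ?_, ?_⟩⟩
    · rw [norm_smul, norm_inv, norm_pow, Complex.norm_real, Real.norm_eq_abs, abs_of_pos hρ0,
        inv_mul_le_iff₀ (by positivity)]
      have h5 : ‖(T m ^ k) z‖ ≤ M * r ^ m * ‖z‖ :=
        ((T m ^ k).le_opNorm z).trans (mul_le_mul_of_nonneg_right hMm (norm_nonneg _))
      have h6 : M * r ^ m ≤ |M| * ρ ^ m := by
        refine (le_abs_self _).trans ?_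
        rw [abs_mul, abs_pow]
        refine mul_le_mul_of_nonneg_left ?_ (abs_nonneg _)
        exact pow_le_pow_left₀ (abs_nonneg _) (by linarith) m
      calc ‖(T m ^ k) z‖ ≤ M * r ^ m * ‖z‖ := h5
        _ ≤ |M| * ρ ^ m * ‖z‖ := mul_le_mul_of_nonneg_right h6 (norm_nonneg _)
        _ = ρ ^ m * (|M| * ‖z‖) := by ring
    · rw [smul_pow, ContinuousLinearMap.smul_apply, map_smul, smul_smul,
        mul_inv_cancel₀ (pow_ne_zero _ hρc), one_smul, ← h4])
  exact hno (notTransitive_of_eigenvector (fun A hA => hA 0) hT hv hl)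

/-- The adjoint of a compact operator is compact. -/
theorem compact_adjoint {K : H →L[ℂ] H} (hK : IsCompactOperator K) :
    IsCompactOperator (ContinuousLinearMap.adjoint K) := by
  set K' : H →L[ℂ] H := ContinuousLinearMap.adjoint K with hK'
  have hKK : IsCompactOperator (K * K' : H →L[ℂ] H) := hK.comp_clm K'
  refine (isCompactOperator_iff_isCompact_closure_image_closedBall
    (K' : H →ₗ[ℂ] H) one_pos).2 ?_
  change IsCompact (closure (K' '' Metric.closedBall (0 : H) 1))
  have hcp := hKK.isCompact_closure_image_closedBall (f := ((K * K' : H →L[ℂ] H) : H →ₗ[ℂ] H)) 1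
  have htb : TotallyBounded ((K * K' : H →L[ℂ] H) '' Metric.closedBall 0 1) :=
    hcp.totallyBounded.subset subset_closure
  have htb2 : TotallyBounded (K' '' Metric.closedBall (0 : H) 1) := by
    rw [Metric.totallyBounded_iff]
    intro ε hε
    have h1 := Metric.finite_approx_of_totallyBounded htb (ε ^ 2 / 2) (by positivity)
    rw [Set.exists_subset_image_finite_and] at h1
    obtain ⟨u, hu, hfin, hcov⟩ := h1
    refine ⟨K' '' u, hfin.image _, ?_⟩
    rintro _ ⟨x, hx, rfl⟩
    obtain ⟨y, hy, hxy⟩ := mem_iUnion₂.1 (hcov ⟨x, hx, rfl⟩)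
    obtain ⟨w, hw, rfl⟩ := hy
    refine mem_iUnion₂.2 ⟨K' w, ⟨w, hw, rfl⟩, ?_⟩
    rw [Metric.mem_ball, dist_eq_norm] at hxy ⊢
    have h2 : ‖x - w‖ ≤ 2 := by
      have h3 : ‖x‖ ≤ 1 := by simpa using hx
      have h4 : ‖w‖ ≤ 1 := by simpa using hu hw
      exact (norm_sub_le _ _).trans (by linarith)
    have h5 : ‖K' (x - w)‖ ^ 2 ≤ ‖K (K' (x - w))‖ * ‖x - w‖ := by
      have h6 : (inner ℂ (K' (x - w)) (K' (x - w)) : ℂ) = inner ℂ (K (K' (x - w))) (x - w) := by
        conv_lhs => rw [hK', ContinuousLinearMap.adjoint_inner_right]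
      have h7 : (‖K' (x - w)‖ : ℝ) ^ 2 = ‖(inner ℂ (K' (x - w)) (K' (x - w)) : ℂ)‖ := by
        rw [inner_self_eq_norm_sq_to_K]
        simp
      rw [h7, h6]
      exact norm_inner_le_norm _ _
    have h8 : ‖K (K' (x - w))‖ < ε ^ 2 / 2 := by
      rw [map_sub, map_sub]
      exact hxy
    rw [← map_sub]
    have h9 : ‖K' (x - w)‖ ^ 2 < ε ^ 2 := by
      have h10 : ‖K (K' (x - w))‖ * ‖x - w‖ ≤ ‖K (K' (x - w))‖ * 2 :=
        mul_le_mul_of_nonneg_left h2 (norm_nonneg _)
      linarith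
    exact lt_of_pow_lt_pow_left₀ 2 hε.le h9
  exact htb2.closure.isCompact_of_isClosed isClosed_closure

theorem notTransitive_of_adjoint {S S' : Set (H →L[ℂ] H)}
    (h : ∀ A ∈ S, ContinuousLinearMap.adjoint A ∈ S') (hS' : NotTransitive S') :
    NotTransitive S := by
  obtain ⟨N, hN, h0, h1, hinv⟩ := hS'
  haveI : CompleteSpace N := hN.completeSpace_coe
  refine ⟨Nᗮ, N.isClosed_orthogonal, ?_, ?_, ?_⟩
  · intro hb
    apply h1
    have := N.orthogonal_orthogonal
    rw [hb, Submodule.bot_orthogonal_eq_top] at this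
    exact this.symm
  · intro ht
    apply h0
    have := N.orthogonal_orthogonal
    rw [ht, Submodule.top_orthogonal_eq_bot] at this
    exact this.symm
  · intro A hA x hx
    rw [Submodule.mem_orthogonal] at hx ⊢
    intro y hy
    have h2 := hx _ (hinv _ (h A hA) y hy)
    rwa [ContinuousLinearMap.adjoint_inner_left] at h2

/-- **Main theorem**, reversed equation. -/
theorem main_backward (T : ℕ → H →L[ℂ] H) (K : H →L[ℂ] H)
    (hT : ∀ c : ℂ, T 0 ≠ c • (1 : H →L[ℂ] H)) (hK : IsCompactOperator K) (hK0 : K ≠ 0)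
    (hTK : ∀ n, K * T n = T (n + 1) * K)
    (r : ℝ) (hb : ∀ k : ℕ, ∃ M : ℝ, ∃ᶠ n in atTop, ‖T n ^ k‖ ≤ M * r ^ n) :
    NotTransitive {A : H →L[ℂ] H | ∀ n, A * T n = T n * A} := by
  refine notTransitive_of_adjoint (S' := {A : H →L[ℂ] H | ∀ n,
    A * ContinuousLinearMap.adjoint (T n) = ContinuousLinearMap.adjoint (T n) * A}) ?_
    (main_forward (fun n => ContinuousLinearMap.adjoint (T n))
      (ContinuousLinearMap.adjoint K) ?_ (compact_adjoint hK) ?_ ?_ r ?_)
  · intro A hA n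
    have h1 := congrArg ContinuousLinearMap.adjoint (hA n)
    simp only [ContinuousLinearMap.mul_def, ContinuousLinearMap.adjoint_comp] at h1 ⊢
    exact h1.symm
  · intro c hc
    apply hT (star c)
    have h1 := congrArg ContinuousLinearMap.adjoint hc
    rw [ContinuousLinearMap.adjoint_adjoint] at h1
    rw [h1, ← ContinuousLinearMap.star_eq_adjoint, star_smul, star_one]
  · intro h0
    apply hK0
    have h1 := congrArg ContinuousLinearMap.adjoint h0
    rw [ContinuousLinearMap.adjoint_adjoint] at h1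
    rw [h1, map_zero]
  · intro n
    have h1 := congrArg ContinuousLinearMap.adjoint (hTK n)
    simp only [ContinuousLinearMap.mul_def, ContinuousLinearMap.adjoint_comp] at h1 ⊢
    exact h1
  · intro k
    obtain ⟨M, hM⟩ := hb k
    refine ⟨M, hM.mono fun n hMn => ?_⟩
    have h1 : ContinuousLinearMap.adjoint (T n) ^ k = star (T n ^ k) := by
      rw [star_pow, ContinuousLinearMap.star_eq_adjoint]
    rw [h1, norm_star]
    exact hMn

end Vale.Agent.P131LI
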