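import Mathlib

/-!
# P131: points with bounded backward orbits of a compact operator

For a compact operator `C` of a complex Hilbert space, all points `x` for which the equation
`C ^ m y = x` has a solution of norm at most `M` for infinitely many `m` (`M` independent of `m`)
lie in one finite-dimensional subspace.
-/

open Filter Topology
open scoped ENNReal NNReal

namespace Vale.Agent.P131LI

variable {H : Type*} [NormedAddCommGroup H] [InnerProductSpace ℂ H] [CompleteSpace H]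

theorem exists_spec [Nontrivial H] (D : H →L[ℂ] H) {c : ℝ} (hc : 0 < c)
    (h : ∃ᶠ m : ℕ in atTop, c ≤ ‖D ^ m‖) : ∃ l ∈ spectrum ℂ D, 1 ≤ ‖l‖ := by
  by_contra! h'
  have h1 : spectralRadius ℂ D < ((1 : ℝ≥0) : ℝ≥0∞) :=
    spectrum.spectralRadius_lt_of_forall_lt D (fun z hz => by
      have := h' z hz
      exact_mod_cast this)
  have h2 := spectrum.pow_norm_pow_one_div_tendsto_nhds_spectralRadius D
  have h3 : Tendsto (fun n : ℕ => ENNReal.ofReal (c ^ (1 / n : ℝ))) atTop (𝓝 1) := by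
    have h4 : Tendsto (fun n : ℕ => c ^ (1 / n : ℝ)) atTop (𝓝 (c ^ (0 : ℝ))) :=
      (Real.continuousAt_const_rpow hc.ne').tendsto.comp tendsto_one_div_atTop_nhds_zero_nat
    rw [Real.rpow_zero] at h4
    have h5 := (ENNReal.continuous_ofReal.tendsto 1).comp h4
    rwa [ENNReal.ofReal_one] at h5
  rw [ENNReal.coe_one] at h1
  have h7 := h2.eventually_lt h3 h1
  obtain ⟨n, hn, hn'⟩ := (h.and_eventually h7).exists
  refine absurd hn' (not_lt.2 ?_)
  exact ENNReal.ofReal_le_ofReal (Real.rpow_le_rpow hc.le hn (by positivity))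

/-- One step of the construction. -/
theorem step {C : H →L[ℂ] H} (hC : IsCompactOperator C) (E : Submodule ℂ H)
    [FiniteDimensional ℂ E] (hE : ∀ x ∈ E, C x ∈ E) {x : H} (hx : x ∉ E) {M : ℝ}
    (hM : ∃ᶠ m : ℕ in atTop, ∃ y, ‖y‖ ≤ M ∧ (C ^ m) y = x) :
    ∃ (u : H) (l : ℂ), ‖u‖ = 1 ∧ 1 ≤ ‖l‖ ∧ C u - l • u ∈ E ∧ u ∈ Eᗮ := by
  haveI : Nontrivial H := ⟨⟨x, 0, fun h => hx (h ▸ E.zero_mem)⟩⟩
  set Q : H →L[ℂ] H := Eᗮ.starProjection with hQ
  have hQE : ∀ y ∈ E, Q y = 0 := fun y hy => by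
    rw [hQ, Submodule.starProjection_apply_eq_zero_iff]
    exact Submodule.le_orthogonal_orthogonal E hy
  have hQs : ∀ y : H, y - Q y ∈ E := fun y => by
    have h1 : E.starProjection y + Eᗮ.starProjection y = y :=
      Submodule.starProjection_add_starProjection_orthogonal y
    have h2 : y - Q y = E.starProjection y := by
      rw [hQ]
      conv_lhs => rw [← h1]
      rw [map_add]
      have h3 : Eᗮ.starProjection (E.starProjection y) = 0 :=
        hQE _ (E.starProjection_apply_mem y)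
      have h4 : Eᗮ.starProjection (Eᗮ.starProjection y) = Eᗮ.starProjection y :=
        Submodule.starProjection_eq_self_iff.2 (Eᗮ.starProjection_apply_mem y)
      rw [h3, h4]
      abel
    rw [h2]
    exact E.starProjection_apply_mem y
  set D : H →L[ℂ] H := Q * C with hD
  have hDc : IsCompactOperator D := hC.clm_comp Q
  have hQCQ : ∀ y, Q (C (Q y)) = Q (C y) := fun y => by
    have h1 := hQE _ (hE _ (hQs y))
    rw [map_sub, map_sub, sub_eq_zero] at h1
    exact h1.symm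
  have hpow : ∀ (m : ℕ) (y : H), Q ((C ^ m) y) = (D ^ m) (Q y) := by
    intro m
    induction m with
    | zero => intro y; simp
    | succ m ih =>
      intro y
      rw [pow_succ, ContinuousLinearMap.mul_apply, ih, pow_succ, ContinuousLinearMap.mul_apply]
      congr 1
      rw [hD, ContinuousLinearMap.mul_apply, hQCQ]
  have hQx : 0 < ‖Q x‖ := by
    rw [norm_pos_iff]
    intro h0
    apply hx
    have := hQs x
    rwa [h0, sub_zero] at this
  have hM0 : 0 ≤ M := by
    obtain ⟨-, y, hy, -⟩ := hM.exists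
    exact (norm_nonneg _).trans hy
  obtain ⟨l, hl, hl1⟩ := exists_spec D (c := ‖Q x‖ / (‖Q‖ * M + 1)) (by positivity) (hM.mono fun m hm => by
    obtain ⟨y, hy, hyx⟩ := hm
    rw [div_le_iff₀ (by positivity)]
    have h1 : ‖Q x‖ ≤ ‖D ^ m‖ * (‖Q‖ * ‖y‖) := by
      rw [← hyx, hpow]
      exact ((D ^ m).le_opNorm _).trans
        (mul_le_mul_of_nonneg_left (Q.le_opNorm y) (norm_nonneg _))
    refine h1.trans (mul_le_mul_of_nonneg_left ?_ (norm_nonneg _))
    have := mul_le_mul_of_nonneg_left hy (norm_nonneg Q)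
    linarith)
  have hl0 : l ≠ 0 := by
    rintro rfl
    rw [norm_zero] at hl1
    linarith
  obtain ⟨v, hv⟩ := ((hDc.hasEigenvalue_iff_mem_spectrum hl0).2 hl).exists_hasEigenvector
  have hv0 : v ≠ 0 := hv.2
  have hDv : Q (C v) = l • v := by
    have := hv.apply_eq_smul
    exact this
  have hvE : v ∈ Eᗮ := by
    have h1 : v = l⁻¹ • Q (C v) := by rw [hDv, smul_smul, inv_mul_cancel₀ hl0, one_smul]
    rw [h1]
    exact Eᗮ.smul_mem _ (Eᗮ.starProjection_apply_mem _)
  have hn : (‖v‖ : ℂ) ≠ 0 := by exact_mod_cast norm_ne_zero_iff.2 hv0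
  refine ⟨(‖v‖ : ℂ)⁻¹ • v, l, ?_, hl1, ?_, Eᗮ.smul_mem _ hvE⟩
  · rw [norm_smul, norm_inv, Complex.norm_real, norm_norm,
      inv_mul_cancel₀ (norm_ne_zero_iff.2 hv0)]
  · rw [map_smul, smul_comm, ← smul_sub]
    refine E.smul_mem _ ?_
    rw [← hDv]
    exact hQs (C v)

/-- **Main lemma.** -/
theorem exists_fd {C : H →L[ℂ] H} (hC : IsCompactOperator C) :
    ∃ E : Submodule ℂ H, FiniteDimensional ℂ E ∧
      ∀ x : H, (∃ M : ℝ, ∃ᶠ m : ℕ in atTop, ∃ y, ‖y‖ ≤ M ∧ (C ^ m) y = x) → x ∈ E := by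
  by_contra! hcon
  -- the states
  let St := {E : Submodule ℂ H // FiniteDimensional ℂ E ∧ ∀ x ∈ E, C x ∈ E}
  have hnext : ∀ s : St, ∃ (s' : St) (u : H) (l : ℂ), s.1 ≤ s'.1 ∧ u ∈ s'.1 ∧ ‖u‖ = 1 ∧
      1 ≤ ‖l‖ ∧ C u - l • u ∈ s.1 ∧ u ∈ s.1ᗮ := by
    rintro ⟨E, hfd, hE⟩
    haveI := hfd
    obtain ⟨x, ⟨M, hM⟩, hx⟩ := hcon E hfd
    obtain ⟨u, l, hu, hl, hCu, huE⟩ := step hC E hE hx hM
    refine ⟨⟨E ⊔ Submodule.span ℂ {u}, inferInstance, ?_⟩, u, l, le_sup_left,
      (le_sup_right : _ ≤ E ⊔ _) (Submodule.mem_span_singleton_self u), hu, hl, hCu, huE⟩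
    intro y hy
    obtain ⟨e, he, z, hz, rfl⟩ := Submodule.mem_sup.1 hy
    obtain ⟨a, rfl⟩ := Submodule.mem_span_singleton.1 hz
    rw [map_add, map_smul]
    refine Submodule.add_mem _ ((le_sup_left : E ≤ _) (hE e he)) (Submodule.smul_mem _ _ ?_)
    have h1 : C u = (C u - l • u) + l • u := by abel
    rw [h1]
    exact Submodule.add_mem _ ((le_sup_left : E ≤ _) hCu)
      ((le_sup_right : _ ≤ E ⊔ _) (Submodule.smul_mem _ _ (Submodule.mem_span_singleton_self u)))
  choose next u l hle hmem hu1 hl1 hCu horth using hnext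
  let s : ℕ → St := fun n => Nat.rec ⟨⊥, inferInstance, fun x hx => by
    rw [Submodule.mem_bot] at hx ⊢
    rw [hx, map_zero]⟩ (fun _ t => next t) n
  have hs : ∀ n, s (n + 1) = next (s n) := fun n => rfl
  have hmono : Monotone fun n => (s n).1 := monotone_nat_of_le_succ fun n => by
    rw [hs]
    exact hle _
  -- images are far apart
  have hfar : ∀ m n, m < n → 1 ≤ ‖C (u (s n)) - C (u (s m))‖ := by
    intro m n hmn
    have h1 : C (u (s m)) ∈ (s n).1 := by
      have h2 : u (s m) ∈ (s (m + 1)).1 := by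
        rw [hs]
        exact hmem _
      exact (s n).2.2 _ (hmono (show m + 1 ≤ n from hmn) h2)
    have h3 : C (u (s n)) - C (u (s m)) = l (s n) • u (s n) +
        ((C (u (s n)) - l (s n) • u (s n)) - C (u (s m))) := by abel
    set w := (C (u (s n)) - l (s n) • u (s n)) - C (u (s m)) with hw
    have hwm : w ∈ (s n).1 := Submodule.sub_mem _ (hCu _) h1
    have h4 : inner ℂ (l (s n) • u (s n)) w = 0 := by
      rw [inner_smul_left]
      have h5 : inner ℂ w (u (s n)) = 0 := (Submodule.mem_orthogonal _ _).1 (horth (s n)) w hwm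
      rw [← inner_conj_symm, h5, map_zero, mul_zero]
    have h6 := norm_add_sq_eq_norm_sq_add_norm_sq_of_inner_eq_zero _ _ h4
    rw [h3]
    have h7 : ‖l (s n) • u (s n)‖ = ‖l (s n)‖ := by rw [norm_smul, hu1, mul_one]
    rw [h7] at h6
    have h8 := hl1 (s n)
    have h9 := norm_nonneg w
    have h10 := norm_nonneg (l (s n) • u (s n) + w)
    nlinarith
  -- compactness
  have hcp : IsCompact (closure (C '' Metric.closedBall (0 : H) 1)) :=
    hC.isCompact_closure_image_closedBall 1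
  obtain ⟨a, -, φ, hφ, hlim⟩ := hcp.tendsto_subseq (x := fun n => C (u (s n))) (fun n =>
    subset_closure ⟨u (s n), by simp [hu1], rfl⟩)
  have hcau := hlim.cauchySeq
  rw [Metric.cauchySeq_iff'] at hcau
  obtain ⟨N, hN⟩ := hcau 1 one_pos
  have h1 := hN (N + 1) (Nat.le_succ N)
  rw [dist_eq_norm] at h1
  have h2 := hfar (φ N) (φ (N + 1)) (hφ (Nat.lt_succ_self N))
  simp only [Function.comp_apply] at h1
  linarith

end Vale.Agent.P131LI
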